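import Vale.Agent.P268.Main

/-!
P268: multiplicity and right-left equivalence by homeomorphisms which are Hoelder at the origin
along one ray.
-/

open Filter Topology Vale.Agent.P268

namespace Vale.Agent.Results.P268.HolderRays

theorem result (N : ℕ) (f g : (Fin N → ℂ) → ℂ) (hf : AnalyticAt ℂ f 0) (hg : AnalyticAt ℂ g 0)
    (hf1 : f 0 = 0) (hg1 : g 0 = 0) (hf0 : ¬ ∀ᶠ z in 𝓝 (0 : Fin N → ℂ), f z = 0)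
    (hg0 : ¬ ∀ᶠ z in 𝓝 (0 : Fin N → ℂ), g z = 0) :
    ((∃ v, NonTangent f v) ∧ ∃ w, NonTangent g w) ∧
    (∀ (φ : (Fin N → ℂ) → Fin N → ℂ) (c C : ℝ), 0 < c → Tendsto φ (𝓝 0) (𝓝 0) →
      (∀ᶠ z in 𝓝 (0 : Fin N → ℂ), ‖f z‖ ≤ C * ‖g (φ z)‖ ^ c) →
      ∀ v, NonTangent f v →
        (∃ δ : ℝ, 0 < δ ∧ ∀ᶠ t : ℝ in 𝓝[>] 0,
          δ * t ^ mult f ≤ ‖φ ((t : ℂ) • v)‖ ^ (c * mult g)) ∧
        ∀ a D : ℝ, (∃ᶠ t : ℝ in 𝓝[>] 0, ‖φ ((t : ℂ) • v)‖ ≤ D * t ^ a) →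
          a * c * mult g ≤ mult f) ∧
    (∀ (φ : OpenPartialHomeomorph (Fin N → ℂ) (Fin N → ℂ)) (ρ : OpenPartialHomeomorph ℂ ℂ),
      0 ∈ φ.source → φ 0 = 0 → 0 ∈ ρ.source → ρ 0 = 0 →
      (∀ᶠ z in 𝓝 (0 : Fin N → ℂ), f z = ρ (g (φ z))) →
      ∀ a a' b b' C : ℝ, 0 < b → 0 < b' →
      (∃ v, NonTangent f v ∧ ∃ᶠ t : ℝ in 𝓝[>] 0, ‖φ ((t : ℂ) • v)‖ ≤ C * t ^ a) →
      (∃ w, NonTangent g w ∧ ∃ᶠ t : ℝ in 𝓝[>] 0, ‖φ.symm ((t : ℂ) • w)‖ ≤ C * t ^ a') →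
      (∀ᶠ s in 𝓝 (0 : ℂ), ‖ρ s‖ ≤ C * ‖s‖ ^ b) →
      (∀ᶠ s in 𝓝 (0 : ℂ), ‖ρ.symm s‖ ≤ C * ‖s‖ ^ b') →
      (mult g : ℝ) - 1 < a * b * mult g → (mult f : ℝ) - 1 < a' * b' * mult f →
      mult f = mult g) ∧
    (∀ (φ : OpenPartialHomeomorph (Fin N → ℂ) (Fin N → ℂ)) (C : ℝ),
      0 ∈ φ.source → φ 0 = 0 → (∀ᶠ z in 𝓝 (0 : Fin N → ℂ), f z = g (φ z)) →
      (∃ v, NonTangent f v ∧ ∃ᶠ t : ℝ in 𝓝[>] 0, ‖φ ((t : ℂ) • v)‖ ≤ C * t) →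
      (∃ w, NonTangent g w ∧ ∃ᶠ t : ℝ in 𝓝[>] 0, ‖φ.symm ((t : ℂ) • w)‖ ≤ C * t) →
      mult f = mult g) := by
  refine ⟨⟨exists_part hf hf0, exists_part hg hg0⟩, ?_, ?_, ?_⟩
  · intro φ c C hc hφ h v hv
    exact ⟨growth hf hg hc hφ h hv, fun a D h1 => key hf hg hc hφ h hv h1⟩
  · rintro φ ρ hφ0 hφ hρ0 hρ h a a' b b' C hb hb' ⟨v, hv, h1⟩ ⟨w, hw, h2⟩ h3 h4 h5 h6
    exact equal hf hg hf1 hg1 φ ρ hφ0 hφ hρ0 hρ h hv hw hb hb' h1 h2 h3 h4 h5 h6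
  · rintro φ C hφ0 hφ h ⟨v, hv, h1⟩ ⟨w, hw, h2⟩
    have hb1 : ∀ᶠ s in 𝓝 (0 : ℂ), ‖(OpenPartialHomeomorph.refl ℂ) s‖ ≤
        max C 1 * ‖s‖ ^ (1 : ℝ) := by
      refine Eventually.of_forall fun s => ?_
      simp only [OpenPartialHomeomorph.refl_apply, Real.rpow_one]
      exact le_mul_of_one_le_left (norm_nonneg s) (le_max_right _ _)
    have hb2 : ∀ᶠ s in 𝓝 (0 : ℂ), ‖(OpenPartialHomeomorph.refl ℂ).symm s‖ ≤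
        max C 1 * ‖s‖ ^ (1 : ℝ) := hb1
    have h8 : ∀ᶠ t : ℝ in 𝓝[>] 0, 0 < t := self_mem_nhdsWithin
    refine equal hf hg hf1 hg1 φ (OpenPartialHomeomorph.refl ℂ) hφ0 hφ (Set.mem_univ _) rfl h
      hv hw (a := 1) (a' := 1) (b := 1) (b' := 1) (C := max C 1) one_pos one_pos
      ?_ ?_ hb1 hb2 (by linarith) (by linarith)
    · refine (h1.and_eventually h8).mono ?_
      rintro t ⟨ht, ht0⟩
      rw [Real.rpow_one]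
      exact ht.trans (mul_le_mul_of_nonneg_right (le_max_left _ _) ht0.le)
    · refine (h2.and_eventually h8).mono ?_
      rintro t ⟨ht, ht0⟩
      rw [Real.rpow_one]
      exact ht.trans (mul_le_mul_of_nonneg_right (le_max_left _ _) ht0.le)

end Vale.Agent.Results.P268.HolderRays
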